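import Mathlib

/-!
# P252: the affine maximal equation (entire graphs over `ℝ^n`)
-/

namespace Vale.Agent.Lib.P252

/-- `∂_i f (x)`: the partial derivative of `f` at `x` in the `i`-th coordinate direction. -/
noncomputable def pd {n : ℕ} (i : Fin n) (f : (Fin n → ℝ) → ℝ) (x : Fin n → ℝ) : ℝ :=
  lineDeriv ℝ f x (Pi.single i 1)

/-- The Hessian matrix `D²u (x) = (∂_i ∂_j u (x))`. -/
noncomputable def hess {n : ℕ} (u : (Fin n → ℝ) → ℝ) (x : Fin n → ℝ) :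
    Matrix (Fin n) (Fin n) ℝ :=
  Matrix.of fun i j => pd i (pd j u) x

/-- `U^{ij} = det(D²u) (D²u)^{-1}_{ij}`. -/
noncomputable def cofU {n : ℕ} (u : (Fin n → ℝ) → ℝ) (x : Fin n → ℝ) :
    Matrix (Fin n) (Fin n) ℝ :=
  (hess u x).det • (hess u x)⁻¹

/-- `w = (det D²u)^{-(n+1)/(n+2)}`. -/
noncomputable def wfun {n : ℕ} (u : (Fin n → ℝ) → ℝ) (x : Fin n → ℝ) : ℝ :=
  (hess u x).det ^ (-((n:ℝ) + 1) / ((n:ℝ) + 2))

/-- The affine maximal equation (AM) on all of `ℝ^n`: `∑_{i,j} U^{ij} ∂_{ij} w = 0`. -/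
def AffineMaximal {n : ℕ} (u : (Fin n → ℝ) → ℝ) : Prop :=
  ∀ x, ∑ i, ∑ j, cofU u x i j * pd i (pd j (wfun u)) x = 0

end Vale.Agent.Lib.P252
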