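import Mathlib
import Vale.Agent.Lib.P252.Defs

/-!
# P252: calculus lemmas for additively separable functions
-/

open Finset
namespace Vale.Agent.Lib.P252


variable {n : ℕ}

lemma cofU_eq_adjugate (u : (Fin n → ℝ) → ℝ) (x : Fin n → ℝ) (h : (hess u x).det ≠ 0) :
    cofU u x = (hess u x).adjugate := by
  unfold cofU
  rw [Matrix.inv_def, smul_smul, Ring.mul_inverse_cancel _ (isUnit_iff_ne_zero.mpr h), one_smul]

/-- product function -/
def prodFn (φ : Fin n → ℝ → ℝ) (x : Fin n → ℝ) : ℝ := ∏ j, φ j (x j)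

def sumFn (φ : Fin n → ℝ → ℝ) (x : Fin n → ℝ) : ℝ := ∑ j, φ j (x j)

lemma shift_apply (x : Fin n → ℝ) (i j : Fin n) (t : ℝ) :
    (x + t • (Pi.single i (1:ℝ) : Fin n → ℝ)) j = if j = i then x j + t else x j := by
  by_cases h : j = i
  · subst h; simp
  · simp [h]

lemma pd_sumFn (φ : Fin n → ℝ → ℝ) (i : Fin n) (x : Fin n → ℝ) :
    pd i (sumFn φ) x = deriv (φ i) (x i) := by
  unfold pd lineDeriv
  have h : (fun t : ℝ => sumFn φ (x + t • (Pi.single i (1:ℝ) : Fin n → ℝ)))
      = fun t => φ i (x i + t) + ∑ j ∈ Finset.univ.erase i, φ j (x j) := by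
    funext t
    unfold sumFn
    rw [← Finset.add_sum_erase _ _ (Finset.mem_univ i)]
    congr 1
    · rw [shift_apply]; simp
    · refine Finset.sum_congr rfl (fun j hj => ?_)
      rw [shift_apply, if_neg (Finset.ne_of_mem_erase hj)]
  rw [h, deriv_add_const, deriv_comp_const_add]
  simp

lemma pd_prodFn (φ : Fin n → ℝ → ℝ) (i : Fin n) (x : Fin n → ℝ) :
    pd i (prodFn φ) x = deriv (φ i) (x i) * ∏ j ∈ Finset.univ.erase i, φ j (x j) := by
  unfold pd lineDeriv
  have h : (fun t : ℝ => prodFn φ (x + t • (Pi.single i (1:ℝ) : Fin n → ℝ)))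
      = fun t => φ i (x i + t) * ∏ j ∈ Finset.univ.erase i, φ j (x j) := by
    funext t
    unfold prodFn
    rw [← Finset.mul_prod_erase _ _ (Finset.mem_univ i)]
    congr 1
    · rw [shift_apply]; simp
    · refine Finset.prod_congr rfl (fun j hj => ?_)
      rw [shift_apply, if_neg (Finset.ne_of_mem_erase hj)]
  rw [h, deriv_mul_const_field, deriv_comp_const_add]
  simp

lemma pd_prodFn' (φ : Fin n → ℝ → ℝ) (i : Fin n) :
    pd i (prodFn φ) = prodFn (Function.update φ i (deriv (φ i))) := by
  funext x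
  rw [pd_prodFn]
  unfold prodFn
  rw [← Finset.mul_prod_erase _ _ (Finset.mem_univ i)]
  congr 1
  · simp
  · refine Finset.prod_congr rfl (fun j hj => ?_)
    rw [Function.update_of_ne (Finset.ne_of_mem_erase hj)]

lemma pd_pd_prodFn (φ : Fin n → ℝ → ℝ) (i : Fin n) (x : Fin n → ℝ) :
    pd i (pd i (prodFn φ)) x = deriv (deriv (φ i)) (x i) * ∏ j ∈ Finset.univ.erase i, φ j (x j) := by
  rw [pd_prodFn', pd_prodFn]
  congr 1
  · simp
  · refine Finset.prod_congr rfl (fun j hj => ?_)
    rw [Function.update_of_ne (Finset.ne_of_mem_erase hj)]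

lemma hess_sumFn (φ : Fin n → ℝ → ℝ) (x : Fin n → ℝ) :
    hess (sumFn φ) x = Matrix.diagonal (fun i => deriv (deriv (φ i)) (x i)) := by
  ext i j
  unfold hess
  rw [Matrix.of_apply]
  have h1 : pd j (sumFn φ) = fun y => deriv (φ j) (y j) := by
    funext y; exact pd_sumFn φ j y
  rw [h1]
  unfold pd lineDeriv
  by_cases hij : i = j
  · subst hij
    rw [Matrix.diagonal_apply_eq]
    have : (fun t : ℝ => deriv (φ i) ((x + t • (Pi.single i (1:ℝ) : Fin n → ℝ)) i))
        = fun t => deriv (φ i) (x i + t) := by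
      funext t; rw [shift_apply]; simp
    rw [this, deriv_comp_const_add]; simp
  · rw [Matrix.diagonal_apply_ne _ hij]
    have : (fun t : ℝ => deriv (φ j) ((x + t • (Pi.single i (1:ℝ) : Fin n → ℝ)) j))
        = fun _ => deriv (φ j) (x j) := by
      funext t; rw [shift_apply, if_neg (Ne.symm hij)]
    rw [this]; simp



/-- A positive function on the whole line with nonpositive second derivative has zero derivative. -/
lemma deriv_eq_zero_of_pos_of_deriv2_nonpos (h : ℝ → ℝ) (hd : Differentiable ℝ h)
    (hdd : Differentiable ℝ (deriv h)) (hpos : ∀ t, 0 < h t)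
    (h2 : ∀ t, deriv (deriv h) t ≤ 0) (t0 : ℝ) : deriv h t0 = 0 := by
  have hanti : Antitone (deriv h) := antitone_of_deriv_nonpos hdd h2
  by_contra hne
  rcases lt_or_gt_of_ne hne with hneg | hpos'
  · -- slope negative: go to the right
    set m := deriv h t0 with hm
    set t := t0 + (h t0) / (-m) with ht
    have hlt : t0 < t := by
      have : 0 < (h t0) / (-m) := div_pos (hpos t0) (by linarith)
      linarith
    obtain ⟨ξ, hξ, hslope⟩ := exists_deriv_eq_slope h hlt hd.continuous.continuousOn
      (hd.differentiableOn)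
    have h1 : deriv h ξ ≤ m := hanti hξ.1.le
    rw [hslope, div_le_iff₀ (by linarith)] at h1
    have h3 : t - t0 = (h t0) / (-m) := by rw [ht]; ring
    rw [h3] at h1
    have h4 : m * ((h t0) / (-m)) = - h t0 := by
      field_simp
    rw [h4] at h1
    have := hpos t
    linarith
  · set m := deriv h t0 with hm
    set t := t0 - (h t0) / m with ht
    have hlt : t < t0 := by
      have : 0 < (h t0) / m := div_pos (hpos t0) hpos'
      linarith
    obtain ⟨ξ, hξ, hslope⟩ := exists_deriv_eq_slope h hlt hd.continuous.continuousOn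
      (hd.differentiableOn)
    have h1 : m ≤ deriv h ξ := hanti hξ.2.le
    rw [hslope, le_div_iff₀ (by linarith)] at h1
    have h3 : t0 - t = (h t0) / m := by rw [ht]; ring
    rw [h3] at h1
    have h4 : m * ((h t0) / m) = h t0 := by
      field_simp
    rw [h4] at h1
    have := hpos t
    linarith

/-- A function with constant second derivative is a quadratic polynomial. -/
lemma eq_quadratic_of_deriv2_const (f : ℝ → ℝ) (hd : Differentiable ℝ f)
    (hdd : Differentiable ℝ (deriv f)) (a : ℝ) (h2 : ∀ t, deriv (deriv f) t = a) (t : ℝ) :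
    f t = a / 2 * t^2 + deriv f 0 * t + f 0 := by
  -- first: deriv f t = a t + deriv f 0
  have h1 : ∀ t, deriv f t = a * t + deriv f 0 := by
    intro t
    have hconst : ∀ x y, (fun s => deriv f s - a * s) x = (fun s => deriv f s - a * s) y := by
      apply is_const_of_deriv_eq_zero
      · exact hdd.sub ((differentiable_const a).mul differentiable_id)
      · intro s
        have hh : HasDerivAt (fun s => deriv f s - a * s) (deriv (deriv f) s - a * 1) s :=
          (hdd s).hasDerivAt.sub ((hasDerivAt_id s).const_mul a)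
        rw [hh.deriv, h2 s]; ring
    have := hconst t 0
    simp only at this
    linarith
  have hconst : ∀ x y, (fun s => f s - (a / 2 * s^2 + deriv f 0 * s)) x
      = (fun s => f s - (a / 2 * s^2 + deriv f 0 * s)) y := by
    apply is_const_of_deriv_eq_zero
    · intro s
      have hh : HasDerivAt (fun s => f s - (a / 2 * s^2 + deriv f 0 * s))
          (deriv f s - (a / 2 * (2 * s) + deriv f 0 * 1)) s := by
        refine (hd s).hasDerivAt.sub (HasDerivAt.add ?_ ((hasDerivAt_id s).const_mul _))
        have := (hasDerivAt_pow 2 s).const_mul (a/2)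
        simpa using this
      exact hh.differentiableAt
    · intro s
      have hh : HasDerivAt (fun s => f s - (a / 2 * s^2 + deriv f 0 * s))
          (deriv f s - (a / 2 * (2 * s) + deriv f 0 * 1)) s := by
        refine (hd s).hasDerivAt.sub (HasDerivAt.add ?_ ((hasDerivAt_id s).const_mul _))
        have := (hasDerivAt_pow 2 s).const_mul (a/2)
        simpa using this
      rw [hh.deriv, h1 s]; ring
  have := hconst t 0
  simp only at this
  linarith


theorem separable_core (f : Fin n → ℝ → ℝ) (hf : ∀ i, ContDiff ℝ 4 (f i))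
    (hpos : ∀ x, (hess (sumFn f) x).PosDef) (hAM : AffineMaximal (sumFn f)) :
    ∀ i, ∃ a : ℝ, 0 < a ∧ ∀ t, f i t = a / 2 * t^2 + deriv (f i) 0 * t + f i 0 := by
  classical
  set θ : ℝ := -((n:ℝ) + 1) / ((n:ℝ) + 2) with hθ
  have hθ0 : θ ≠ 0 := by
    rw [hθ]
    have h1 : (0:ℝ) < (n:ℝ) + 1 := by positivity
    have h2 : (0:ℝ) < (n:ℝ) + 2 := by positivity
    have : -((n:ℝ) + 1) / ((n:ℝ) + 2) < 0 := div_neg_of_neg_of_pos (by linarith) h2
    exact this.ne
  -- g i = second derivative of f i
  set g : Fin n → ℝ → ℝ := fun i => deriv (deriv (f i)) with hg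
  have hgpos : ∀ i t, 0 < g i t := by
    intro i t
    have h := hpos (fun _ => t)
    rw [hess_sumFn, Matrix.posDef_diagonal_iff] at h
    exact h i
  have hgC : ∀ i, ContDiff ℝ 2 (g i) := by
    intro i
    have h1 : ContDiff ℝ 3 (deriv (f i)) := by
      have : ContDiff ℝ (3 + 1) (f i) := by
        have h4 : ((3:WithTop ℕ∞) + 1) = 4 := by norm_num
        rw [h4]; exact hf i
      exact (contDiff_succ_iff_deriv.mp this).2.2
    have : ContDiff ℝ (2 + 1) (deriv (f i)) := by
      have h3 : ((2:WithTop ℕ∞) + 1) = 3 := by norm_num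
      rw [h3]; exact h1
    exact (contDiff_succ_iff_deriv.mp this).2.2
  set h : Fin n → ℝ → ℝ := fun i t => (g i t) ^ θ with hh
  have hhpos : ∀ i t, 0 < h i t := fun i t => Real.rpow_pos_of_pos (hgpos i t) θ
  have hhC : ∀ i, ContDiff ℝ 2 (h i) := by
    intro i
    exact (hgC i).rpow_const_of_ne (fun t => (hgpos i t).ne')
  have hw : wfun (sumFn f) = prodFn h := by
    funext x
    unfold wfun prodFn
    rw [hess_sumFn, Matrix.det_diagonal]
    rw [← Real.finsetProd_rpow _ _ (fun i _ => (hgpos i (x i)).le)]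
  -- the equation in reduced form
  have heq : ∀ x : Fin n → ℝ, ∑ i, (∏ j ∈ Finset.univ.erase i, g j (x j)) *
      (deriv (deriv (h i)) (x i) * ∏ j ∈ Finset.univ.erase i, h j (x j)) = 0 := by
    intro x
    have hx := hAM x
    have hdet : (hess (sumFn f) x).det ≠ 0 := by
      rw [hess_sumFn, Matrix.det_diagonal]
      exact (Finset.prod_pos (fun i _ => hgpos i (x i))).ne'
    rw [cofU_eq_adjugate _ _ hdet, hess_sumFn, Matrix.adjugate_diagonal, hw] at hx
    rw [← hx]
    refine Finset.sum_congr rfl (fun i _ => ?_)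
    rw [Finset.sum_eq_single i]
    · rw [Matrix.diagonal_apply_eq, pd_pd_prodFn]
    · intro j _ hji
      rw [Matrix.diagonal_apply_ne _ (Ne.symm hji), zero_mul]
    · intro hi; exact absurd (Finset.mem_univ i) hi
  set q : Fin n → ℝ → ℝ := fun i t => deriv (deriv (h i)) t / (g i t * h i t) with hq
  have hqsum : ∀ x : Fin n → ℝ, ∑ i, q i (x i) = 0 := by
    intro x
    have hx := heq x
    have hprod : 0 < ∏ j, (g j (x j) * h j (x j)) :=
      Finset.prod_pos (fun j _ => mul_pos (hgpos j _) (hhpos j _))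
    have : (∑ i, q i (x i)) * ∏ j, (g j (x j) * h j (x j)) = 0 := by
      rw [← hx, Finset.sum_mul]
      refine Finset.sum_congr rfl (fun i _ => ?_)
      rw [← Finset.mul_prod_erase _ _ (Finset.mem_univ i), Finset.prod_mul_distrib]
      have h1 := (hgpos i (x i)).ne'
      have h2 := (hhpos i (x i)).ne'
      simp only [hq]
      field_simp
    rcases mul_eq_zero.mp this with h1 | h1
    · exact h1
    · exact absurd h1 hprod.ne'
  have hqconst : ∀ i t, q i t = q i 0 := by
    intro i t
    have h1 := hqsum (Function.update (fun _ => (0:ℝ)) i t)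
    have h2 := hqsum (fun _ => (0:ℝ))
    rw [← Finset.add_sum_erase _ _ (Finset.mem_univ i)] at h1 h2
    have h3 : ∑ j ∈ Finset.univ.erase i, q j (Function.update (fun _ => (0:ℝ)) i t j)
        = ∑ j ∈ Finset.univ.erase i, q j 0 := by
      refine Finset.sum_congr rfl (fun j hj => ?_)
      rw [Function.update_of_ne (Finset.ne_of_mem_erase hj)]
    rw [h3] at h1
    simp only [Function.update_self] at h1
    linarith
  have hhd : ∀ i, Differentiable ℝ (h i) := fun i => (hhC i).differentiable (by norm_num)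
  have hhdd : ∀ i, Differentiable ℝ (deriv (h i)) := by
    intro i
    have : ContDiff ℝ (1 + 1) (h i) := by
      have h2 : ((1:WithTop ℕ∞) + 1) = 2 := by norm_num
      rw [h2]; exact hhC i
    exact ((contDiff_succ_iff_deriv.mp this).2.2).differentiable (by norm_num)
  have hh2 : ∀ i t, deriv (deriv (h i)) t = q i 0 * (g i t * h i t) := by
    intro i t
    rw [← hqconst i t]
    simp only [hq]
    have := (mul_pos (hgpos i t) (hhpos i t)).ne'
    rw [div_mul_cancel₀ _ this]
  -- no negative constant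
  have hqnonneg : ∀ i, 0 ≤ q i 0 := by
    intro i
    by_contra hneg
    rw [not_le] at hneg
    have hle : ∀ t, deriv (deriv (h i)) t ≤ 0 := by
      intro t
      rw [hh2 i t]
      exact (mul_neg_of_neg_of_pos hneg (mul_pos (hgpos i t) (hhpos i t))).le
    have hz : ∀ t, deriv (h i) t = 0 :=
      deriv_eq_zero_of_pos_of_deriv2_nonpos (h i) (hhd i) (hhdd i) (hhpos i) hle
    have hz' : deriv (h i) = fun _ => 0 := funext hz
    have : deriv (deriv (h i)) 0 = 0 := by rw [hz']; simp
    rw [hh2 i 0] at this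
    have h3 := mul_neg_of_neg_of_pos hneg (mul_pos (hgpos i 0) (hhpos i 0))
    linarith
  have hqzero : ∀ i, q i 0 = 0 := by
    intro i
    have h0 := hqsum (fun _ => (0:ℝ))
    exact (Finset.sum_eq_zero_iff_of_nonneg (fun j _ => hqnonneg j)).mp h0 i (Finset.mem_univ i)
  intro i
  have hle : ∀ t, deriv (deriv (h i)) t ≤ 0 := by
    intro t
    rw [hh2 i t, hqzero i, zero_mul]
  have hz : ∀ t, deriv (h i) t = 0 :=
    deriv_eq_zero_of_pos_of_deriv2_nonpos (h i) (hhd i) (hhdd i) (hhpos i) hle
  have hconst : ∀ t, h i t = h i 0 := fun t => is_const_of_deriv_eq_zero (hhd i) hz t 0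
  have hgconst : ∀ t, g i t = g i 0 := by
    intro t
    exact (Real.rpow_left_inj (hgpos i t).le (hgpos i 0).le hθ0).mp (hconst t)
  refine ⟨g i 0, hgpos i 0, ?_⟩
  have hfd : Differentiable ℝ (f i) := (hf i).differentiable (by norm_num)
  have hfdd : Differentiable ℝ (deriv (f i)) := by
    have : ContDiff ℝ (3 + 1) (f i) := by
      have h4 : ((3:WithTop ℕ∞) + 1) = 4 := by norm_num
      rw [h4]; exact hf i
    exact ((contDiff_succ_iff_deriv.mp this).2.2).differentiable (by norm_num)
  exact eq_quadratic_of_deriv2_const (f i) hfd hfdd (g i 0) hgconst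


end Vale.Agent.Lib.P252
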